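import Vale.Agent.P290.R2.H596.Spec3

/-! Row S4: from the points of the central fibre to all points of the fibres nearby. -/

open Set Filter Metric
open scoped Topology

namespace Vale.Agent.P290.R2.H847

open Vale.Agent.P290 Vale.Agent.P290.R2.H596

theorem symFibres (hN : StSymNear) : StSymFibres := by
  intro T E _ _ F hp vol hvol t₀ h R hR
  have h1 : ∀ x₀ ∈ F.p ⁻¹' {t₀}, ∀ᶠ x in 𝓝 x₀, SB F vol (F.p x) x R := by
    intro x₀ hx₀
    exact hN T E F vol hvol t₀ x₀ hx₀ R hR (h x₀ hx₀ (R + 1) (by linarith))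
  have h2 := hp.isClosedMap.eventually_nhds_fiber t₀ h1
  filter_upwards [h2] with t ht x hx
  have h3 := ht x hx
  rwa [hx] at h3

end Vale.Agent.P290.R2.H847
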